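import Vale.Agent.P141.A2
import Vale.Agent.P141.Num

/-! Necessary conditions for boundedness of the trilinear Hilbert transform. -/

open scoped ENNReal

namespace Vale.Agent.Results.P141.Unbounded

open Vale.Agent.P141

theorem result :
    (∀ p₁ p₂ p₃ r : ℝ≥0∞, Holder p₁ p₂ p₃ r → r ≤ 117 / 250 → ¬ BoundedAt p₁ p₂ p₃ r) ∧
    ∀ p₁ p₂ p₃ r : ℝ≥0∞, Holder p₁ p₂ p₃ r → r < 1 → BoundedAt p₁ p₂ p₃ r →
      ∀ (G A₁ A₂ A₃ : Finset ℤ) (τ : ℤ → ℤ) (w₁ w₂ w₃ : ℤ → ℝ),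
        (∀ x ∈ G, x - τ x ∈ A₁ ∧ x - 2 * τ x ∈ A₂ ∧ x - 3 * τ x ∈ A₃) →
        (∀ a, 0 ≤ w₁ a) → (∀ a, 0 ≤ w₂ a) → (∀ a, 0 ≤ w₃ a) →
        ∑ a ∈ A₁, w₁ a ≤ 1 → ∑ a ∈ A₂, w₂ a ≤ 1 → ∑ a ∈ A₃, w₃ a ≤ 1 →
        ∑ x ∈ G, (w₁ (x - τ x) ^ (p₁⁻¹).toReal * w₂ (x - 2 * τ x) ^ (p₂⁻¹).toReal *
          w₃ (x - 3 * τ x) ^ (p₃⁻¹).toReal) ^ (r.toReal / (1 - r.toReal)) ≤ 1 := by
  refine ⟨fun p₁ p₂ p₃ r h hr hb => ?_, fun _ _ _ _ => kakeya⟩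
  have r0 : 0 < r.toReal := ENNReal.toReal_pos h.2.2.2.1.ne' h.2.2.2.2.1.ne
  have r1 : r.toReal ≤ 117 / 250 := by
    simpa using ENNReal.toReal_mono (ENNReal.div_ne_top (by simp) (by simp)) hr
  have r2 : r < 1 := by
    rw [← ENNReal.toReal_lt_toReal h.2.2.2.2.1.ne ENNReal.one_ne_top, ENNReal.toReal_one]
    linarith
  have fin : ∀ {p : ℝ≥0∞}, 1 < p → p⁻¹ ≠ ∞ := fun hp => ENNReal.inv_ne_top.2 (pos_of_gt hp).ne'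
  have e : (p₁⁻¹).toReal + (p₂⁻¹).toReal + (p₃⁻¹).toReal = r.toReal⁻¹ := by
    rw [← ENNReal.toReal_inv, h.2.2.2.2.2, ENNReal.toReal_add
      (ENNReal.add_ne_top.2 ⟨fin h.1, fin h.2.1⟩) (fin h.2.2.1),
      ENNReal.toReal_add (fin h.1) (fin h.2.1)]
  have r3 : 0 < 1 - r.toReal := by linarith
  refine not_le.2 (num_big ENNReal.toReal_nonneg ENNReal.toReal_nonneg ENNReal.toReal_nonneg
    (div_pos r0 r3).le ?_) (kakeya h r2 hb GG _ _ _ tau (fun a => (99 / 100) ^ k₁ a)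
    (fun a => (99 / 100) ^ k₂ a) (fun a => (99 / 100) ^ k₃ a) num_mem (fun _ => by positivity)
    (fun _ => by positivity) (fun _ => by positivity) num_r.1 num_r.2.1 num_r.2.2.1)
  rw [e, ← mul_div_assoc, inv_mul_cancel₀ r0.ne', div_le_div_iff₀ r3 (by norm_num)]
  linarith

end Vale.Agent.Results.P141.Unbounded
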